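import Mathlib
import Vale.Agent.Lib.P002.Defs
import Vale.Agent.Lib.P002.Split
import Vale.Agent.Lib.P002.Final

/-!
# P002: potential density of integral points, abelian fundamental group

For a finitely generated commutative group `Γ` (the fundamental group of the variety), elements
`γ i` (the meridians), any rank `r` and any quasi-unipotent classes (represented by `c i`), there
is ONE number field `L ⊆ ℂ` such that the semisimple representations `Γ → SL_r(O_L)` with
`ρ (γ i)` conjugate to `c i` are Zariski dense among all semisimple `ρ : Γ → SL_r(ℂ)` with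
`ρ (γ i)` conjugate to `c i`: every polynomial in the matrix entries `ρ(g)_{ij}` which vanishes at
the integral ones vanishes at all of them.  The case `s = 0` is the case without conditions.
-/

namespace Vale.Agent.Results.P002.AbelianPi1

open Vale.Agent.Lib.P002

theorem result (Γ : Type*) [CommGroup Γ] [Group.FG Γ] (r s : ℕ) (γ : Fin s → Γ)
    (c : Fin s → SLC r) (hc : ∀ i, IsQuasiUnipotent (c i)) :
    ∃ L : IntermediateField ℚ ℂ, FiniteDimensional ℚ L ∧
      ∀ F : MvPolynomial (Γ × Fin r × Fin r) ℂ,
        (∀ ρ : Γ →* SLC r, IsSemisimpleRep ρ → (∀ i, IsConj (ρ (γ i)) (c i)) →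
          IsIntegralRep L ρ → MvPolynomial.eval (coords ρ) F = 0) →
        ∀ ρ : Γ →* SLC r, IsSemisimpleRep ρ → (∀ i, IsConj (ρ (γ i)) (c i)) →
          MvPolynomial.eval (coords ρ) F = 0 := by
  obtain ⟨L, hfd, h⟩ := density_split γ c hc
  refine ⟨L, hfd, fun F hF ρ hρ hγ => ?_⟩
  exact h F (fun ρ' h1 h2 h3 => hF ρ' h1.isSemisimpleRep h2 h3) ρ hρ.isSumOfCharacters hγ

end Vale.Agent.Results.P002.AbelianPi1
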