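import Mathlib
import Vale.Agent.Lib.P002.Defs
import Vale.Agent.Lib.P002.Final

/-!
# P002: potential density of integral points on the locus of sums of rank one local systems

For ANY finitely generated group `Γ`, elements `γ i`, rank `r` and quasi-unipotent classes
(represented by `c i`), there is ONE number field `L ⊆ ℂ` such that, among the representations
`ρ : Γ → SL_r(ℂ)` which are direct sums of one-dimensional representations and satisfy
`ρ (γ i) ∼ c i`, those with all entries in `O_L` are Zariski dense.
-/

namespace Vale.Agent.Results.P002.SumsOfCharacters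

open Vale.Agent.Lib.P002

theorem result (Γ : Type*) [Group Γ] [Group.FG Γ] (r s : ℕ) (γ : Fin s → Γ)
    (c : Fin s → SLC r) (hc : ∀ i, IsQuasiUnipotent (c i)) :
    ∃ L : IntermediateField ℚ ℂ, FiniteDimensional ℚ L ∧
      ∀ F : MvPolynomial (Γ × Fin r × Fin r) ℂ,
        (∀ ρ : Γ →* SLC r, IsSumOfCharacters ρ → (∀ i, IsConj (ρ (γ i)) (c i)) →
          IsIntegralRep L ρ → MvPolynomial.eval (coords ρ) F = 0) →
        ∀ ρ : Γ →* SLC r, IsSumOfCharacters ρ → (∀ i, IsConj (ρ (γ i)) (c i)) →
          MvPolynomial.eval (coords ρ) F = 0 :=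
  density_split γ c hc

end Vale.Agent.Results.P002.SumsOfCharacters
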