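import Mathlib
import Vale.Agent.Lib.P002.Defs
import Vale.Agent.Results.P002.AbelianPi1
import Vale.Agent.Results.P002.SumsOfCharacters

/-!
# P002: potential density of integral points: sums of rank one local systems (any group) and
all semisimple local systems (commutative group), in one statement
-/

namespace Vale.Agent.Results.P002.A_Combined

open Vale.Agent.Lib.P002

universe u

theorem result :
    (∀ (Γ : Type u) [Group Γ] [Group.FG Γ] (r s : ℕ) (γ : Fin s → Γ)
      (c : Fin s → SLC r), (∀ i, IsQuasiUnipotent (c i)) →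
      ∃ L : IntermediateField ℚ ℂ, FiniteDimensional ℚ L ∧
        ∀ F : MvPolynomial (Γ × Fin r × Fin r) ℂ,
          (∀ ρ : Γ →* SLC r, IsSumOfCharacters ρ → (∀ i, IsConj (ρ (γ i)) (c i)) →
            IsIntegralRep L ρ → MvPolynomial.eval (coords ρ) F = 0) →
          ∀ ρ : Γ →* SLC r, IsSumOfCharacters ρ → (∀ i, IsConj (ρ (γ i)) (c i)) →
            MvPolynomial.eval (coords ρ) F = 0) ∧
    (∀ (Γ : Type u) [CommGroup Γ] [Group.FG Γ] (r s : ℕ) (γ : Fin s → Γ)
      (c : Fin s → SLC r), (∀ i, IsQuasiUnipotent (c i)) →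
      ∃ L : IntermediateField ℚ ℂ, FiniteDimensional ℚ L ∧
        ∀ F : MvPolynomial (Γ × Fin r × Fin r) ℂ,
          (∀ ρ : Γ →* SLC r, IsSemisimpleRep ρ → (∀ i, IsConj (ρ (γ i)) (c i)) →
            IsIntegralRep L ρ → MvPolynomial.eval (coords ρ) F = 0) →
          ∀ ρ : Γ →* SLC r, IsSemisimpleRep ρ → (∀ i, IsConj (ρ (γ i)) (c i)) →
            MvPolynomial.eval (coords ρ) F = 0) :=
  ⟨fun Γ _ _ r s γ c hc => SumsOfCharacters.result Γ r s γ c hc,
   fun Γ _ _ r s γ c hc => AbelianPi1.result Γ r s γ c hc⟩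

end Vale.Agent.Results.P002.A_Combined
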